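import Crest.Agent.R193.C.En
import Crest.Agent.R193.B.Top

/-!
# R193/G/Equi: equicontinuity of the approximate conformal maps and their ultralimits
-/

set_option autoImplicit false
open Set Metric Filter Topology MeasureTheory

namespace Crest.Agent.R193.BlockG

variable {Z : Type} [MetricSpace Z]

/-- the escape property of `LocAt` -/
def Esc (v : Z → ℝ) (x₀ : Z) (ρ μ : ℝ) : Prop :=
  ∀ y ∈ ball x₀ (ρ / 4), ∃ F : Set Z, IsPreconnected F ∧ F ⊆ ball x₀ ρ ∧ y ∈ F ∧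
    ρ / 4 ≤ diam F ∧ ∀ z ∈ F, |v z - v y| ≤ μ

theorem equi_aux (Γ : Cov Z) (hL : LoewL Γ) {ε : ℝ} (hε : 0 < ε) : ∃ τ : ℝ, 0 < τ ∧
    ∀ (x₀ : Z) (ρ C μ : ℝ) (k : ℕ) (v : Z → ℝ), 0 < ρ → 0 ≤ μ → Bdd v → Esc v x₀ ρ μ →
      Γ.En k v (ball x₀ ρ) ≤ C → sc k ≤ τ * (ρ / 4) →
      ∀ x ∈ ball x₀ (ρ / 4), ∀ y ∈ ball x₀ (ρ / 4), dist x y < τ * (ρ / 4) →
        |v x - v y| ≤ 2 * μ + √(ε * C) := by
  obtain ⟨τ, hτ, H⟩ := hL ε hε
  refine ⟨τ, hτ, fun x₀ ρ C μ k v hρ hμ hv hE hC hk => ?_⟩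
  have key : ∀ x ∈ ball x₀ (ρ / 4), ∀ y ∈ ball x₀ (ρ / 4), dist x y < τ * (ρ / 4) →
      v y - v x ≤ 2 * μ + √(ε * C) := by
    intro x hx y hy hxy
    have hs : 0 ≤ √(ε * C) := Real.sqrt_nonneg _
    by_cases hab : v x + μ ≤ v y - μ
    · obtain ⟨E, hE1, -, hE3, hE4, hE5⟩ := hE x hx
      obtain ⟨F, hF1, -, hF3, hF4, hF5⟩ := hE y hy
      have hR : 0 < ρ / 4 := by positivity
      have h1 := H v E F (v x + μ) (v y - μ) (ρ / 4) x k hv hab hE1 hF1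
        (fun z hz => subset_closure (by
          have := (abs_le.1 (hE5 z hz)).2
          show v z ≤ v x + μ
          linarith))
        (fun z hz => subset_closure (by
          have := (abs_le.1 (hF5 z hz)).1
          show v y - μ ≤ v z
          linarith))
        hR hE4 hF4 ⟨x, hE3, mem_ball_self (by positivity)⟩
        ⟨y, hF3, by rw [mem_ball, dist_comm]; exact hxy⟩ hk
      have h2 : Γ.En k v (ball x (ρ / 4)) ≤ C := by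
        refine le_trans (Γ.En_mono k v ?_) hC
        intro z hz
        rw [mem_ball] at hz hx ⊢
        have := dist_triangle z x x₀
        linarith
      have h3 : (v y - μ - (v x + μ)) ^ 2 ≤ ε * C :=
        h1.trans (mul_le_mul_of_nonneg_left h2 hε.le)
      have h4 : v y - μ - (v x + μ) ≤ √(ε * C) := Real.le_sqrt_of_sq_le h3
      linarith
    · push Not at hab
      linarith
  intro x hx y hy hxy
  rw [abs_le]
  have h1 := key x hx y hy hxy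
  have h2 := key y hy x hx (by rw [dist_comm]; exact hxy)
  constructor <;> linarith

/-- equicontinuity along `𝒰` on a ball -/
def UEqui (v : ℕ → Z → ℝ) (x₀ : Z) (r : ℝ) : Prop :=
  ∀ ε : ℝ, 0 < ε → ∃ δ : ℝ, 0 < δ ∧ ∀ᶠ k in 𝒰, ∀ x ∈ ball x₀ r, ∀ y ∈ ball x₀ r,
    dist x y < δ → |v k x - v k y| ≤ ε

theorem ev_sc_le {a : ℝ} (ha : 0 < a) : ∀ᶠ k in 𝒰, sc k ≤ a :=
  (tendsto_sc.mono_left 𝒰_le).eventually (eventually_le_nhds ha)

theorem uequi (Γ : Cov Z) (hL : LoewL Γ) {x₀ : Z} {ρ C : ℝ} (hρ : 0 < ρ) (hC : 0 ≤ C)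
    {v : ℕ → Z → ℝ} {μ : ℕ → ℝ} (hμ : Tendsto μ 𝒰 (𝓝 0))
    (hv : ∀ᶠ k in 𝒰, 0 ≤ μ k ∧ Bdd (v k) ∧ Esc (v k) x₀ ρ (μ k) ∧
      Γ.En k (v k) (ball x₀ ρ) ≤ C) : UEqui v x₀ (ρ / 4) := by
  intro ε hε
  obtain ⟨τ, hτ, H⟩ := equi_aux Γ hL (ε := (ε / 2) ^ 2 / (C + 1)) (by positivity)
  refine ⟨τ * (ρ / 4), by positivity, ?_⟩
  have h1 : ∀ᶠ k in 𝒰, μ k ≤ ε / 4 := hμ.eventually (eventually_le_nhds (by positivity))
  filter_upwards [hv, h1, ev_sc_le (a := τ * (ρ / 4)) (by positivity)] with k hk hk1 hk2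
  intro x hx y hy hxy
  have h2 := H x₀ ρ C (μ k) k (v k) hρ hk.1 hk.2.1 hk.2.2.1 hk.2.2.2 hk2 x hx y hy hxy
  have h3 : √((ε / 2) ^ 2 / (C + 1) * C) ≤ ε / 2 := by
    rw [Real.sqrt_le_iff]
    refine ⟨by positivity, ?_⟩
    rw [div_mul_eq_mul_div, div_le_iff₀ (by positivity)]
    nlinarith [sq_nonneg (ε / 2)]
  linarith

theorem exists_ulim {a : ℕ → ℝ} {M : ℝ} (h : ∀ᶠ k in 𝒰, |a k| ≤ M) :
    ∃ b : ℝ, Tendsto a 𝒰 (𝓝 b) := by
  have h1 : (Ultrafilter.map a (hyperfilter ℕ) : Filter ℝ) ≤ 𝓟 (Icc (-M) M) := by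
    rw [Ultrafilter.coe_map, le_principal_iff, mem_map]
    filter_upwards [h] with k hk
    exact abs_le.1 hk
  obtain ⟨b, -, hb⟩ := isCompact_Icc.ultrafilter_le_nhds _ h1
  exact ⟨b, hb⟩

theorem UEqui.exists_lim {v : ℕ → Z → ℝ} {x₀ : Z} {r : ℝ} (hr : 0 < r) (he : UEqui v x₀ r) :
    ∃ r₀ : ℝ, 0 < r₀ ∧ r₀ ≤ r ∧ ∃ u : Z → ℝ,
      (∀ y ∈ ball x₀ r₀, Tendsto (fun k => v k y - v k x₀) 𝒰 (𝓝 (u y))) ∧
      ContinuousOn u (ball x₀ r₀) := by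
  obtain ⟨δ, hδ, H⟩ := he 1 one_pos
  have key : ∀ y : Z, ∃ b : ℝ, y ∈ ball x₀ (min δ r) →
      Tendsto (fun k => v k y - v k x₀) 𝒰 (𝓝 b) := by
    intro y
    by_cases hy : y ∈ ball x₀ (min δ r)
    · obtain ⟨b, hb⟩ := exists_ulim (a := fun k => v k y - v k x₀) (M := 1) (by
        filter_upwards [H] with k hk
        exact hk y (ball_subset_ball (min_le_right _ _) hy) x₀ (mem_ball_self hr)
          (lt_of_lt_of_le hy (min_le_left _ _)))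
      exact ⟨b, fun _ => hb⟩
    · exact ⟨0, fun h => absurd h hy⟩
  choose u hu using key
  refine ⟨min δ r, lt_min hδ hr, min_le_right _ _, u, hu, ?_⟩
  rw [Metric.continuousOn_iff]
  intro b hb ε hε
  obtain ⟨δ', hδ', H'⟩ := he (ε / 2) (by positivity)
  refine ⟨δ', hδ', fun a ha hab => ?_⟩
  have h1 : Tendsto (fun k => |(v k a - v k x₀) - (v k b - v k x₀)|) 𝒰 (𝓝 |u a - u b|) :=
    ((hu a ha).sub (hu b hb)).abs
  have h2 : |u a - u b| ≤ ε / 2 := by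
    refine le_of_tendsto h1 ?_
    filter_upwards [H'] with k hk
    have := hk a (ball_subset_ball (min_le_right _ _) ha) b
      (ball_subset_ball (min_le_right _ _) hb) hab
    simpa using this
  rw [Real.dist_eq]
  linarith

/-- the limit is not constant -/
theorem UEqui.nonconst [CompactSpace Z] {v : ℕ → Z → ℝ} {x₀ : Z} {r r₀ : ℝ} (hr₀ : 0 < r₀)
    (hr : r₀ ≤ r) (he : UEqui v x₀ r) {u : Z → ℝ}
    (hu : ∀ y ∈ ball x₀ r₀, Tendsto (fun k => v k y - v k x₀) 𝒰 (𝓝 (u y)))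
    {ε : ℝ} (hε : 0 < ε)
    (h : ∀ᶠ k in 𝒰, ∃ a ∈ ball x₀ (r₀ / 2), ∃ b ∈ ball x₀ (r₀ / 2), ε ≤ |v k a - v k b|) :
    ∃ a ∈ ball x₀ r₀, ∃ b ∈ ball x₀ r₀, u a ≠ u b := by
  have h' : ∀ᶠ k in 𝒰, ∃ p : Z × Z, p.1 ∈ ball x₀ (r₀ / 2) ∧ p.2 ∈ ball x₀ (r₀ / 2) ∧
      ε ≤ |v k p.1 - v k p.2| := by
    filter_upwards [h] with k ⟨a, ha, b, hb, hab⟩
    exact ⟨(a, b), ha, hb, hab⟩
  have : Nonempty (Z × Z) := ⟨(x₀, x₀)⟩
  obtain ⟨p, hp⟩ := h'.choice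
  have hK : IsCompact (closedBall x₀ (r₀ / 2) ×ˢ closedBall x₀ (r₀ / 2)) :=
    (isClosed_closedBall.isCompact).prod isClosed_closedBall.isCompact
  have h1 : (Ultrafilter.map p (hyperfilter ℕ) : Filter (Z × Z)) ≤
      𝓟 (closedBall x₀ (r₀ / 2) ×ˢ closedBall x₀ (r₀ / 2)) := by
    rw [Ultrafilter.coe_map, le_principal_iff, mem_map]
    filter_upwards [hp] with k hk
    exact ⟨ball_subset_closedBall hk.1, ball_subset_closedBall hk.2.1⟩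
  obtain ⟨q, hq, hq'⟩ := hK.ultrafilter_le_nhds _ h1
  have hq'' : Tendsto p 𝒰 (𝓝 q) := hq'
  have hq1 : q.1 ∈ ball x₀ r₀ := closedBall_subset_ball (by linarith) hq.1
  have hq2 : q.2 ∈ ball x₀ r₀ := closedBall_subset_ball (by linarith) hq.2
  refine ⟨q.1, hq1, q.2, hq2, fun hne => ?_⟩
  obtain ⟨δ, hδ, H⟩ := he (ε / 4) (by positivity)
  have e1 : ∀ᶠ k in 𝒰, dist (p k).1 q.1 < δ :=
    ((continuous_fst.tendsto q).comp hq'').eventually (ball_mem_nhds _ hδ)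
  have e2 : ∀ᶠ k in 𝒰, dist (p k).2 q.2 < δ :=
    ((continuous_snd.tendsto q).comp hq'').eventually (ball_mem_nhds _ hδ)
  have e3 : Tendsto (fun k => |(v k q.1 - v k x₀) - (v k q.2 - v k x₀)|) 𝒰 (𝓝 |u q.1 - u q.2|) :=
    ((hu _ hq1).sub (hu _ hq2)).abs
  rw [hne, sub_self, abs_zero] at e3
  have e4 := e3.eventually (eventually_lt_nhds (show (0 : ℝ) < ε / 4 by positivity))
  obtain ⟨k, hk1, hk2, hk3, hk4, hk5⟩ := (hp.and (H.and (e1.and (e2.and e4)))).exists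
  have sub : ball x₀ (r₀ / 2) ⊆ ball x₀ r := ball_subset_ball (by linarith)
  have sub' : ball x₀ r₀ ⊆ ball x₀ r := ball_subset_ball hr
  have f1 := abs_le.1 (hk2 _ (sub hk1.1) _ (sub' hq1) hk3)
  have f2 := abs_le.1 (hk2 _ (sub hk1.2.1) _ (sub' hq2) hk4)
  have f3 := abs_lt.1 hk5
  have f4 := hk1.2.2
  rcases le_abs.1 f4 with f | f <;> linarith [f1.1, f1.2, f2.1, f2.2, f3.1, f3.2]

end Crest.Agent.R193.BlockG
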