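import Crest.Agent.R193.G.Equi

/-!
# R193/G/Log: the logarithmic cutoff and the level-`k` distortion estimate
-/

set_option autoImplicit false
open Set Metric Filter Topology MeasureTheory

namespace Crest.Agent.R193.BlockG

/-- `0` below `a`, `1` above `2a`, affine in between -/
noncomputable def clamp (a s : ℝ) : ℝ := max 0 (min 1 ((s - a) / a))

theorem clamp_nonneg (a s : ℝ) : 0 ≤ clamp a s := le_max_left _ _

theorem clamp_le_one (a s : ℝ) : clamp a s ≤ 1 := max_le zero_le_one (min_le_left _ _)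

theorem clamp_eq_zero {a s : ℝ} (ha : 0 < a) (h : s ≤ a) : clamp a s = 0 := by
  unfold clamp
  refine max_eq_left (min_le_of_right_le ?_)
  exact div_nonpos_of_nonpos_of_nonneg (by linarith) ha.le

theorem clamp_eq_one {a s : ℝ} (ha : 0 < a) (h : 2 * a ≤ s) : clamp a s = 1 := by
  unfold clamp
  rw [min_eq_left, max_eq_right zero_le_one]
  rw [le_div_iff₀ ha]; linarith

theorem clamp_sub_le {a : ℝ} (ha : 0 < a) (s s' : ℝ) : clamp a s - clamp a s' ≤ |s - s'| / a := by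
  unfold clamp
  have h1 : |max 0 (min 1 ((s - a) / a)) - max 0 (min 1 ((s' - a) / a))| ≤
      |min 1 ((s - a) / a) - min 1 ((s' - a) / a)| := by
    rw [max_comm 0, max_comm 0]
    exact abs_max_sub_max_le_abs _ _ _
  have h2 : |min 1 ((s - a) / a) - min 1 ((s' - a) / a)| ≤ |(s - a) / a - (s' - a) / a| := by
    refine (abs_min_sub_min_le_max _ _ _ _).trans ?_
    simp
  have h3 : (s - a) / a - (s' - a) / a = (s - s') / a := by ring
  rw [h3, abs_div, abs_of_pos ha] at h2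
  exact (le_abs_self _).trans (h1.trans h2)

variable {Z : Type} [MetricSpace Z]

/-- sup-norm distance of the images -/
noncomputable def gg (U W : Z → ℝ) (x p : Z) : ℝ := max |U p - U x| |W p - W x|

omit [MetricSpace Z] in
theorem gg_sub_le {U W : Z → ℝ} (hU : Bdd U) (hW : Bdd W) (x : Z) {B : Set Z} {p q : Z}
    (hp : p ∈ B) (hq : q ∈ B) : |gg U W x p - gg U W x q| ≤ osc U B + osc W B := by
  have h1 := abs_sub_le_osc (hU.isBounded B) hp hq
  have h2 := abs_sub_le_osc (hW.isBounded B) hp hq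
  have h3 := osc_nonneg U B
  have h4 := osc_nonneg W B
  unfold gg
  refine (abs_max_sub_max_le_max _ _ _ _).trans (max_le ?_ ?_)
  · refine (abs_abs_sub_abs_le_abs_sub _ _).trans ?_
    rw [sub_sub_sub_cancel_right]; linarith
  · refine (abs_abs_sub_abs_le_abs_sub _ _).trans ?_
    rw [sub_sub_sub_cancel_right]; linarith

omit [MetricSpace Z] in
theorem osc_eq_zero_of_const {v : Z → ℝ} {B : Set Z} {c : ℝ} (h : ∀ p ∈ B, v p = c) :
    osc v B = 0 :=
  le_antisymm (osc_le le_rfl fun a ha b hb => by rw [h a ha, h b hb, sub_self]) (osc_nonneg _ _)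

omit [MetricSpace Z] in
theorem osc_sum_sq_le {m : ℕ} {f : ℕ → Z → ℝ} (hf : ∀ i, Bdd (f i)) {B : Set Z}
    (h : ∀ i j, i < j → osc (f i) B = 0 ∨ osc (f j) B = 0) :
    osc (fun p => ∑ i ∈ Finset.range m, f i p) B ^ 2 ≤
      ∑ i ∈ Finset.range m, osc (f i) B ^ 2 := by
  have h1 : osc (fun p => ∑ i ∈ Finset.range m, f i p) B ≤
      ∑ i ∈ Finset.range m, osc (f i) B := by
    refine osc_le (Finset.sum_nonneg fun i _ => osc_nonneg _ _) fun a ha b hb => ?_
    rw [← Finset.sum_sub_distrib]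
    exact Finset.sum_le_sum fun i _ =>
      (le_abs_self _).trans (abs_sub_le_osc ((hf i).isBounded B) ha hb)
  have h2 : (∑ i ∈ Finset.range m, osc (f i) B) ^ 2 = ∑ i ∈ Finset.range m, osc (f i) B ^ 2 := by
    rw [sq, Finset.sum_mul_sum]
    refine Finset.sum_congr rfl fun i hi => ?_
    rw [Finset.sum_eq_single_of_mem i hi, sq]
    intro j _ hji
    rcases lt_or_gt_of_ne hji with hlt | hlt
    · rcases h j i hlt with h0 | h0 <;> simp [h0]
    · rcases h i j hlt with h0 | h0 <;> simp [h0]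
  rw [← h2]
  exact pow_le_pow_left₀ (osc_nonneg _ _) h1 2

omit [MetricSpace Z] in
theorem bdd_clamp (a : ℝ) (g : Z → ℝ) : Bdd fun p => clamp a (g p) :=
  ⟨1, fun p => by rw [abs_of_nonneg (clamp_nonneg _ _)]; exact clamp_le_one _ _⟩

omit [MetricSpace Z] in
theorem bdd_sum_clamp (m : ℕ) (a : ℕ → ℝ) (g : Z → ℝ) :
    Bdd fun p => ∑ i ∈ Finset.range m, clamp (a i) (g p) :=
  ⟨m, fun p => by
    rw [abs_of_nonneg (Finset.sum_nonneg fun i _ => clamp_nonneg _ _)]
    calc ∑ i ∈ Finset.range m, clamp (a i) (g p) ≤ ∑ _i ∈ Finset.range m, (1 : ℝ) :=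
          Finset.sum_le_sum fun i _ => clamp_le_one _ _
      _ = m := by simp⟩

theorem en_clamp {Γ : Cov Z} {x₀ : Z} {ρ C μ : ℝ} {k : ℕ} {U W : Z → ℝ}
    (h : LocAt Γ x₀ ρ C k U W μ) (hC : 0 ≤ C) (x : Z) {a : ℝ} (ha : 0 < a) (hμ : μ ≤ a) :
    Γ.En k (fun p => clamp a (gg U W x p)) (ball x₀ ρ) ≤ 25 * C := by
  classical
  have hb := h.box (U x - 2 * a) (U x + 2 * a) (W x - 2 * a) (W x + 2 * a) (by linarith)
    (by linarith)
  have hμ0 := h.μ_nonneg
  have hb2 : C * ((U x + 2 * a - (U x - 2 * a) + μ) * (W x + 2 * a - (W x - 2 * a) + μ)) ≤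
      25 * C * a ^ 2 := by
    have e : (U x + 2 * a - (U x - 2 * a) + μ) * (W x + 2 * a - (W x - 2 * a) + μ) =
      (4 * a + μ) ^ 2 := by ring
    rw [e]
    have : (4 * a + μ) ^ 2 ≤ (5 * a) ^ 2 := pow_le_pow_left₀ (by linarith) (by linarith) 2
    nlinarith
  unfold Cov.En
  rw [Finset.sum_filter]
  rw [Finset.sum_filter] at hb
  have hb3 := hb.trans hb2
  rw [← div_le_iff₀ (by positivity), Finset.sum_div] at hb3
  refine le_trans (Finset.sum_le_sum fun c _ => ?_) hb3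
  by_cases h1 : Γ.cell k c ⊆ ball x₀ ρ
  · by_cases h2 : ∃ z ∈ Γ.cell k c, U z ∈ Icc (U x - 2 * a) (U x + 2 * a) ∧
        W z ∈ Icc (W x - 2 * a) (W x + 2 * a)
    · rw [if_pos h1, if_pos ⟨h1, h2⟩, ← div_pow]
      refine pow_le_pow_left₀ (osc_nonneg _ _) ?_ 2
      have := osc_nonneg U (Γ.cell k c)
      have := osc_nonneg W (Γ.cell k c)
      refine osc_le (by positivity) fun p hp q hq => (clamp_sub_le ha _ _).trans ?_
      exact div_le_div_of_nonneg_right (gg_sub_le h.bddU h.bddW x hp hq) ha.le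
    · rw [if_pos h1, if_neg (fun hh => h2 hh.2), zero_div]
      rw [osc_eq_zero_of_const (c := 1)]
      · simp
      · intro p hp
        refine clamp_eq_one ha ?_
        by_contra hlt
        push Not at hlt
        unfold gg at hlt
        rw [max_lt_iff, abs_lt, abs_lt] at hlt
        exact h2 ⟨p, hp, ⟨by linarith [hlt.1.1], by linarith [hlt.1.2]⟩,
          ⟨by linarith [hlt.2.1], by linarith [hlt.2.2]⟩⟩
  · rw [if_neg h1, if_neg (fun hh => h1 hh.1), zero_div]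

theorem en_log {Γ : Cov Z} {x₀ : Z} {ρ C μ : ℝ} {k : ℕ} {U W : Z → ℝ}
    (h : LocAt Γ x₀ ρ C k U W μ) (hC : 0 ≤ C) (x : Z) {l : ℝ} (hl : 0 < l) (hμ : μ ≤ l) (m : ℕ) :
    Γ.En k (fun p => ∑ i ∈ Finset.range m, clamp (4 ^ i * l) (gg U W x p)) (ball x₀ ρ) ≤
      m * (25 * C) := by
  classical
  have h4 : ∀ i : ℕ, l ≤ 4 ^ i * l := fun i =>
    le_mul_of_one_le_left hl.le (one_le_pow₀ (by norm_num))
  have h1 : Γ.En k (fun p => ∑ i ∈ Finset.range m, clamp (4 ^ i * l) (gg U W x p)) (ball x₀ ρ) ≤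
      ∑ i ∈ Finset.range m, Γ.En k (fun p => clamp (4 ^ i * l) (gg U W x p)) (ball x₀ ρ) := by
    unfold Cov.En
    rw [Finset.sum_comm]
    refine Finset.sum_le_sum fun c hc => ?_
    rw [Finset.mem_filter] at hc
    refine osc_sum_sq_le (f := fun i p => clamp (4 ^ i * l) (gg U W x p))
      (fun i => bdd_clamp _ _) fun i j hij => ?_
    by_cases hp : ∃ p ∈ Γ.cell k c, gg U W x p < 2 * (4 ^ i * l)
    · obtain ⟨p, hp, hp'⟩ := hp
      right
      refine osc_eq_zero_of_const (c := 0) fun q hq => clamp_eq_zero (by positivity) ?_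
      have e1 := (abs_le.1 (gg_sub_le h.bddU h.bddW x hq hp)).2
      have e2 := h.osc_le c hc.1 hc.2
      have e3 : (4 : ℝ) ^ (i + 1) ≤ 4 ^ j := pow_le_pow_right₀ (by norm_num) hij
      have e4 : (4 : ℝ) ^ (i + 1) * l ≤ 4 ^ j * l := mul_le_mul_of_nonneg_right e3 hl.le
      rw [pow_succ] at e4
      have := h4 i
      nlinarith
    · left
      push Not at hp
      exact osc_eq_zero_of_const (c := 1) fun q hq => clamp_eq_one (by positivity) (hp q hq)
  refine h1.trans ?_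
  calc ∑ i ∈ Finset.range m, Γ.En k (fun p => clamp (4 ^ i * l) (gg U W x p)) (ball x₀ ρ)
      ≤ ∑ _i ∈ Finset.range m, 25 * C :=
        Finset.sum_le_sum fun i _ => en_clamp h hC x (by positivity) (hμ.trans (h4 i))
    _ = m * (25 * C) := by simp

theorem big_aux [PreconnectedSpace Z] (Γ : Cov Z) (hd : ∀ a b : Z, dist a b ≤ 1) (hG : LoewG Γ)
    {C : ℝ} (hC : 0 ≤ C) {t : ℝ} (ht : 0 < t) : ∃ (m : ℕ) (c : ℝ), 0 < c ∧
    ∀ (x₀ : Z) (ρ ρ₀ μ l : ℝ) (k : ℕ) (U W : Z → ℝ), LocAt Γ x₀ ρ C k U W μ → 0 < ρ₀ →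
      8 * (Γ.L + 2) * ρ₀ ≤ ρ → ∀ x ∈ ball x₀ ρ₀, ∀ y ∈ ball x₀ ρ₀, ∀ z ∈ ball x₀ ρ₀, x ≠ z →
      dist x y ≤ t * dist x z → sc k ≤ c * dist x z → 0 < l → μ ≤ l →
      gg U W x z + μ ≤ l → gg U W x y - μ < 4 ^ m * l := by
  have hL := Γ.two_le
  obtain ⟨C', c, hC', hc, H⟩ := hG (Γ.L * (2 * t)) (by positivity)
  obtain ⟨m, hm⟩ := exists_nat_gt (C' * (25 * C))
  refine ⟨m, c, hc, fun x₀ ρ ρ₀ μ l k U W h hρ₀ hρ x hx y hy z hz hxz hxy hk hl hμ hz' => ?_⟩
  by_contra hy'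
  push Not at hy'
  have hbd : ∀ E : Set Z, Bornology.IsBounded E := fun E =>
    isBounded_iff.2 ⟨1, fun a _ b _ => hd a b⟩
  have sub : ball x₀ ρ₀ ⊆ ball x₀ (ρ / 4) := ball_subset_ball (by nlinarith)
  have hR : 0 < dist x z := dist_pos.2 hxz
  have hR2 : dist x z < 2 * ρ₀ := by
    rw [mem_ball] at hx hz
    have := dist_triangle_right x z x₀
    linarith
  have hR3 : dist x y < 2 * ρ₀ := by
    rw [mem_ball] at hx hy
    have := dist_triangle_right x y x₀
    linarith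
  have hR4 : dist x z ≤ ρ / 4 := by nlinarith
  obtain ⟨E, hE1, -, hE3, hE4, hE5⟩ := h.conn x (sub hx) z (sub hz)
  have hE6 : dist x z ≤ diam E := by
    rcases hE4 with hE4 | hE4
    · exact dist_le_diam_of_mem (hbd E) hE3 hE4
    · exact hR4.trans hE4
  have hF : ∃ F : Set Z, IsPreconnected F ∧ y ∈ F ∧ ρ / 4 ≤ diam F ∧
      ∀ p ∈ F, 4 ^ m * l ≤ gg U W x p := by
    unfold gg at hy'
    rcases le_total |U y - U x| |W y - W x| with hh | hh
    · rw [max_eq_right hh] at hy'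
      obtain ⟨F, hF1, -, hF3, hF4, hF5⟩ := h.escW y (sub hy)
      refine ⟨F, hF1, hF3, hF4, fun p hp => le_max_of_le_right ?_⟩
      have e1 := hF5 p hp
      have e2 := abs_sub_le (W y) (W p) (W x)
      rw [abs_sub_comm (W y) (W p)] at e2
      linarith
    · rw [max_eq_left hh] at hy'
      obtain ⟨F, hF1, -, hF3, hF4, hF5⟩ := h.escU y (sub hy)
      refine ⟨F, hF1, hF3, hF4, fun p hp => le_max_of_le_left ?_⟩
      have e1 := hF5 p hp
      have e2 := abs_sub_le (U y) (U p) (U x)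
      rw [abs_sub_comm (U y) (U p)] at e2
      linarith
  obtain ⟨F, hF1, hF3, hF4, hF5⟩ := hF
  have hr : 0 < min (2 * t * dist x z) (2 * ρ₀) := lt_min (by positivity) (by positivity)
  obtain ⟨J, -, hJ1, hJ2, hJ3⟩ := Γ.llc1 hd x hr
  have hxJ : x ∈ J := hJ2 (mem_ball_self hr)
  have hyJ : y ∈ J := hJ2 (by
    rw [mem_ball, dist_comm]
    exact lt_min (by nlinarith [mul_pos ht hR]) hR3)
  have h4 : ∀ i : ℕ, l ≤ 4 ^ i * l := fun i =>
    le_mul_of_one_le_left hl.le (one_le_pow₀ (by norm_num))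
  have key := H (fun p => ∑ i ∈ Finset.range m, clamp (4 ^ i * l) (gg U W x p)) E F J 0 m
    (dist x z) x k (bdd_sum_clamp _ _ _) (Nat.cast_nonneg m) hE1 hF1 hJ1
    (fun p hp => subset_closure (by
      show ∑ i ∈ Finset.range m, clamp (4 ^ i * l) (gg U W x p) ≤ 0
      refine (Finset.sum_eq_zero fun i _ => clamp_eq_zero (by positivity) ?_).le
      refine le_trans ?_ (h4 i)
      have e := hE5 p hp
      unfold gg at hz' ⊢
      exact max_le (by linarith [le_max_left |U z - U x| |W z - W x|, e.1])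
        (by linarith [le_max_right |U z - U x| |W z - W x|, e.2])))
    (fun p hp => subset_closure (by
      show (m : ℝ) ≤ ∑ i ∈ Finset.range m, clamp (4 ^ i * l) (gg U W x p)
      rw [Finset.sum_congr rfl (g := fun _ => (1 : ℝ))]
      · simp
      · intro i hi
        refine clamp_eq_one (by positivity) (le_trans ?_ (hF5 p hp))
        have e3 : (4 : ℝ) ^ (i + 1) ≤ 4 ^ m :=
          pow_le_pow_right₀ (by norm_num) (Finset.mem_range.1 hi)
        have e4 : (4 : ℝ) ^ (i + 1) * l ≤ 4 ^ m * l := mul_le_mul_of_nonneg_right e3 hl.le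
        rw [pow_succ] at e4
        have := h4 i
        nlinarith))
    ⟨x, hxJ, hE3⟩ ⟨y, hyJ, hF3⟩ hR hE6 (hR4.trans hF4)
    (hJ3.trans (ball_subset_ball (by
      have := min_le_left (2 * t * dist x z) (2 * ρ₀)
      nlinarith))) hk
  have hsub : thickening (dist x z) J ⊆ ball x₀ ρ := by
    intro p hp
    obtain ⟨q, hq, hpq⟩ := mem_thickening_iff.1 hp
    have e1 : dist q x < Γ.L * min (2 * t * dist x z) (2 * ρ₀) := hJ3 hq
    have e2 : Γ.L * min (2 * t * dist x z) (2 * ρ₀) ≤ Γ.L * (2 * ρ₀) :=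
      mul_le_mul_of_nonneg_left (min_le_right _ _) (by linarith)
    rw [mem_ball] at hx ⊢
    have e3 := dist_triangle4 p q x x₀
    nlinarith
  have e1 := (Γ.En_mono k _ hsub).trans (en_log h hC x hl hμ m)
  have e2 := key.trans (mul_le_mul_of_nonneg_left e1 hC')
  have hm0 : (0 : ℝ) < m := lt_of_le_of_lt (by positivity) hm
  nlinarith

end Crest.Agent.R193.BlockG
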