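import Crest.Agent.R193.G.Log

/-!
# R193/G/Main: a quasisymmetric embedding of a ball.  Blueprint: notes193/R193.md.  The statements below are FROZEN; the block owner fills them.
-/

set_option autoImplicit false
open Set Metric Filter Topology MeasureTheory

namespace Crest.Agent.R193

variable {Z : Type} [MetricSpace Z] [CompactSpace Z]

open BlockG in
theorem exists_QS (Γ : Cov Z) (hs : Nonempty (Z ≃ₜ OnePoint ℂ)) (hd : ∀ a b : Z, dist a b ≤ 1)
    (hG : LoewG Γ) (hL : LoewL Γ) (h : Loc Γ) :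
    ∃ (x₀ : Z) (ρ : ℝ) (φ : Z → ℂ), 0 < ρ ∧ QS φ (ball x₀ ρ) := by
  obtain ⟨x₀, ρ, C, U, W, μ, hρ, hC, hμ, hloc, hnc⟩ := h
  have := sph_connected hs
  have hL2 := Γ.two_le
  have eU : UEqui U x₀ (ρ / 4) := uequi Γ hL hρ hC hμ (by
    filter_upwards [hloc] with k hk
    exact ⟨hk.μ_nonneg, hk.bddU, hk.escU, by
      linarith [hk.tot, Γ.En_nonneg k (W k) (ball x₀ ρ)]⟩)
  have eW : UEqui W x₀ (ρ / 4) := uequi Γ hL hρ hC hμ (by
    filter_upwards [hloc] with k hk
    exact ⟨hk.μ_nonneg, hk.bddW, hk.escW, by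
      linarith [hk.tot, Γ.En_nonneg k (U k) (ball x₀ ρ)]⟩)
  obtain ⟨r₁, hr₁, hr₁', u, hu, hu'⟩ := eU.exists_lim (by positivity)
  obtain ⟨r₂, hr₂, hr₂', w, hw, hw'⟩ := eW.exists_lim (by positivity)
  obtain ⟨ρ₀, hρ₀, h1, h2, h3⟩ : ∃ ρ₀ : ℝ, 0 < ρ₀ ∧ ρ₀ ≤ r₁ ∧ ρ₀ ≤ r₂ ∧
      8 * (Γ.L + 2) * ρ₀ ≤ ρ := by
    refine ⟨min (min r₁ r₂) (ρ / (8 * (Γ.L + 2))), lt_min (lt_min hr₁ hr₂) (by positivity),
      (min_le_left _ _).trans (min_le_left _ _), (min_le_left _ _).trans (min_le_right _ _), ?_⟩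
    rw [mul_comm, ← le_div_iff₀ (by positivity)]
    exact min_le_right _ _
  have s1 : ball x₀ ρ₀ ⊆ ball x₀ r₁ := ball_subset_ball h1
  have s2 : ball x₀ ρ₀ ⊆ ball x₀ r₂ := ball_subset_ball h2
  have hg : ∀ x ∈ ball x₀ ρ₀, ∀ y ∈ ball x₀ ρ₀,
      Tendsto (fun k => gg (U k) (W k) x y) 𝒰 (𝓝 (gg u w x y)) := by
    intro x hx y hy
    have e1 := ((hu y (s1 hy)).sub (hu x (s1 hx))).abs
    have e2 := ((hw y (s2 hy)).sub (hw x (s2 hx))).abs
    simp only [sub_sub_sub_cancel_right] at e1 e2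
    exact e1.max e2
  have hup : ∀ x y : Z, ‖((u x : ℂ) + w x * Complex.I) - (u y + w y * Complex.I)‖ ≤
      2 * gg u w x y := by
    intro x y
    refine (Complex.norm_le_abs_re_add_abs_im _).trans ?_
    have e1 := le_max_left |u y - u x| |w y - w x|
    have e2 := le_max_right |u y - u x| |w y - w x|
    unfold gg
    simp only [Complex.sub_re, Complex.add_re, Complex.ofReal_re, Complex.mul_re, Complex.I_re,
      mul_zero, Complex.ofReal_im, Complex.I_im, mul_one, sub_self, add_zero, Complex.sub_im,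
      Complex.add_im, Complex.mul_im, zero_add]
    rw [abs_sub_comm (u x), abs_sub_comm (w x)]
    linarith
  have hlow : ∀ x y : Z, gg u w x y ≤
      ‖((u x : ℂ) + w x * Complex.I) - (u y + w y * Complex.I)‖ := by
    intro x y
    have e1 := Complex.abs_re_le_norm (((u x : ℂ) + w x * Complex.I) - (u y + w y * Complex.I))
    have e2 := Complex.abs_im_le_norm (((u x : ℂ) + w x * Complex.I) - (u y + w y * Complex.I))
    simp only [Complex.sub_re, Complex.add_re, Complex.ofReal_re, Complex.mul_re, Complex.I_re,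
      mul_zero, Complex.ofReal_im, Complex.I_im, mul_one, sub_self, add_zero, Complex.sub_im,
      Complex.add_im, Complex.mul_im, zero_add] at e1 e2
    unfold gg
    rw [abs_sub_comm (u y), abs_sub_comm (w y)]
    exact max_le e1 e2
  have big : ∀ t : ℝ, 0 < t → ∃ H : ℝ, 0 < H ∧ ∀ x ∈ ball x₀ ρ₀, ∀ y ∈ ball x₀ ρ₀,
      ∀ z ∈ ball x₀ ρ₀, dist x y ≤ t * dist x z → gg u w x y ≤ H * gg u w x z := by
    intro t ht
    obtain ⟨m, c, hc, H⟩ := big_aux Γ hd hG hC ht
    refine ⟨4 ^ (m + 1), by positivity, fun x hx y hy z hz hxy => ?_⟩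
    have g0 : 0 ≤ gg u w x z := le_max_of_le_left (abs_nonneg _)
    by_cases hxz : x = z
    · subst hxz
      rw [dist_self, mul_zero, dist_le_zero] at hxy
      subst hxy
      simp [gg]
    by_contra hlt
    push Not at hlt
    obtain ⟨l, hl1, hl2⟩ : ∃ l : ℝ, gg u w x z < l ∧ 4 ^ m * l < gg u w x y := by
      refine ⟨gg u w x y / 4 ^ (m + 1), ?_, ?_⟩
      · rw [lt_div_iff₀ (by positivity)]; linarith
      · have g1 : 0 < gg u w x y := lt_of_le_of_lt (by positivity) hlt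
        rw [pow_succ, ← mul_div_assoc, mul_div_mul_left _ _ (by positivity)]
        linarith
    have hl : 0 < l := lt_of_le_of_lt g0 hl1
    have e1 : ∀ᶠ k in 𝒰, μ k ≤ l := hμ.eventually (eventually_le_nhds hl)
    have e2 : ∀ᶠ k in 𝒰, gg (U k) (W k) x z + μ k ≤ l :=
      ((hg x hx z hz).add hμ).eventually (eventually_le_nhds (by simpa using hl1))
    have e3 : ∀ᶠ k in 𝒰, 4 ^ m * l < gg (U k) (W k) x y - μ k :=
      ((hg x hx y hy).sub hμ).eventually (eventually_gt_nhds (by simpa using hl2))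
    have e4 := ev_sc_le (mul_pos hc (dist_pos.2 hxz))
    obtain ⟨k, hk0, hk1, hk2, hk3, hk4⟩ := (hloc.and (e1.and (e2.and (e3.and e4)))).exists
    have := H x₀ ρ ρ₀ (μ k) l k (U k) (W k) hk0 hρ₀ h3 x hx y hy z hz hxz hxy hk4 hl hk1 hk2
    linarith
  refine ⟨x₀, ρ₀, fun y => (u y : ℂ) + w y * Complex.I, hρ₀, ?_, ?_, ?_⟩
  · exact (Complex.continuous_ofReal.comp_continuousOn (hu'.mono s1)).add
      ((Complex.continuous_ofReal.comp_continuousOn (hw'.mono s2)).mul continuousOn_const)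
  · intro x hx z hz hxz
    by_contra hne
    have g0 : gg u w x z = 0 := by
      have := hlow x z
      simp only at hxz
      rw [hxz, sub_self, norm_zero] at this
      exact le_antisymm this (le_max_of_le_left (abs_nonneg _))
    have hconst : ∀ y ∈ ball x₀ ρ₀, w y = w x := by
      intro y hy
      have hpos : 0 < dist x z := dist_pos.2 hne
      obtain ⟨H, -, hH⟩ := big (dist x y / dist x z + 1) (by positivity)
      have := hH x hx y hy z hz (by
        rw [add_mul, div_mul_cancel₀ _ hpos.ne']; linarith)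
      rw [g0, mul_zero] at this
      have e := (le_max_right |u y - u x| |w y - w x|).trans this
      exact sub_eq_zero.1 (abs_nonpos_iff.1 e)
    obtain ⟨ε, hε, hev⟩ := hnc (ρ₀ / 2) (by positivity)
    obtain ⟨a, ha, b, hb, hab⟩ := eW.nonconst hρ₀ (h2.trans hr₂') (u := w)
      (fun y hy => hw y (s2 hy)) hε hev
    exact hab ((hconst a ha).trans (hconst b hb).symm)
  · intro t ht
    obtain ⟨H, hH, hH'⟩ := big t ht
    refine ⟨2 * H, by positivity, fun x hx y hy z hz hxy => ?_⟩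
    have e1 := hup x y
    have e2 := hlow x z
    have e3 := hH' x hx y hy z hz hxy
    have e4 := mul_le_mul_of_nonneg_left e2 hH.le
    linarith

end Crest.Agent.R193
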